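import Mathlib

/-!
# P192 — the finitely presented Burnside problem: presentations with few relators

For a presentation `⟨x_1, …, x_n | r_1, …, r_m⟩` (the Mathlib group
`PresentedGroup (Set.range rel)` with `rel : Fin m → FreeGroup (Fin n)`):

* if `m < n` the group has an element of infinite order;
* hence a periodic group with such a presentation has `n ≤ m`;
* a periodic group with a presentation with at most one relator is finite.
-/

namespace Vale.Agent.Results.P192.A_DeficiencyBound

open Matrix

/-- The homomorphism `F_n → ℤ` sending the generator `x_j` to `v j`. -/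
private noncomputable def weightHom {n : ℕ} (v : Fin n → ℤ) :
    FreeGroup (Fin n) →* Multiplicative ℤ :=
  FreeGroup.lift (fun j => Multiplicative.ofAdd (v j))

/-- The exponent sum of the generator `x_j`. -/
private noncomputable def expSum {n : ℕ} (j : Fin n) : FreeGroup (Fin n) →* Multiplicative ℤ :=
  weightHom (fun i => if i = j then 1 else 0)

private lemma weightHom_eq {n : ℕ} (v : Fin n → ℤ) (w : FreeGroup (Fin n)) :
    Multiplicative.toAdd (weightHom v w) =
      ∑ j, Multiplicative.toAdd (expSum j w) * v j := by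
  induction w using FreeGroup.induction_on with
  | C1 => simp
  | of x => simp [weightHom, expSum]
  | inv_of x ih => simp [weightHom, expSum]
  | mul x y hx hy =>
    simp only [map_mul, toAdd_mul, add_mul, Finset.sum_add_distrib, hx, hy]

/-- Core step: a nonzero integer vector orthogonal to all relator exponent vectors gives an
element of infinite order. -/
private lemma exists_infinite_order {n m : ℕ} (rel : Fin m → FreeGroup (Fin n))
    (v : Fin n → ℤ) (hv : v ≠ 0)
    (h : (Matrix.of fun i j => Multiplicative.toAdd (expSum j (rel i))) *ᵥ v = 0) :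
    ∃ g : PresentedGroup (Set.range rel), ∀ k : ℕ, 0 < k → g ^ k ≠ 1 := by
  have hrel : ∀ r ∈ Set.range rel,
      FreeGroup.lift (fun j => Multiplicative.ofAdd (v j)) r = 1 := by
    rintro _ ⟨i, rfl⟩
    have h1 := congrFun h i
    have h2 := weightHom_eq v (rel i)
    simp only [Matrix.mulVec, dotProduct, Matrix.of_apply, Pi.zero_apply] at h1
    rw [h1] at h2
    exact Multiplicative.toAdd.injective h2
  obtain ⟨j, hj⟩ : ∃ j, v j ≠ 0 := by
    by_contra hcon
    exact hv (funext fun j => not_not.mp fun hj => hcon ⟨j, hj⟩)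
  refine ⟨PresentedGroup.of j, fun k hk hpow => ?_⟩
  have h3 : PresentedGroup.toGroup hrel (PresentedGroup.of j ^ k) = 1 := by
    rw [hpow, map_one]
  rw [map_pow, PresentedGroup.toGroup.of] at h3
  have h4 : (k : ℤ) * v j = 0 := by
    have := congrArg Multiplicative.toAdd h3
    simpa using this
  rcases mul_eq_zero.mp h4 with h5 | h5
  · exact absurd (by exact_mod_cast h5) hk.ne'
  · exact hj h5

private lemma part1 (n m : ℕ) (rel : Fin m → FreeGroup (Fin n)) (hmn : m < n) :
    ∃ g : PresentedGroup (Set.range rel), ∀ k : ℕ, 0 < k → g ^ k ≠ 1 := by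
  rcases Nat.eq_zero_or_pos m with hm | hm
  · subst hm
    refine exists_infinite_order rel (fun _ => 1) ?_ ?_
    · intro h0
      have := congrFun h0 ⟨0, hmn⟩
      simp at this
    · funext i
      exact i.elim0
  · obtain ⟨t, ht, hAt, -⟩ := Int.Matrix.exists_ne_zero_int_vec_norm_le
      (Matrix.of fun i j => Multiplicative.toAdd (expSum j (rel i)))
      (by simpa using hmn) (by simpa using hm)
    exact exists_infinite_order rel t ht hAt

private lemma part2 (G : Type*) [Group G] (n m : ℕ) (rel : Fin m → FreeGroup (Fin n))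
    (e : Nonempty (G ≃* PresentedGroup (Set.range rel)))
    (hper : ∀ g : G, ∃ k : ℕ, 0 < k ∧ g ^ k = 1) : n ≤ m := by
  by_contra hcon
  obtain ⟨e⟩ := e
  obtain ⟨g, hg⟩ := part1 n m rel (Nat.lt_of_not_le hcon)
  obtain ⟨k, hk, hgk⟩ := hper (e.symm g)
  refine hg k hk ?_
  have := congrArg e hgk
  simpa using this

private lemma finite_of_generated_by_le_one {P : Type*} [Group P] {n : ℕ} (hn : n ≤ 1)
    (f : Fin n → P) (hf : Subgroup.closure (Set.range f) = ⊤)
    (hper : ∀ g : P, ∃ k : ℕ, 0 < k ∧ g ^ k = 1) : Finite P := by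
  interval_cases n
  · have hr : Set.range f = ∅ := Set.range_eq_empty f
    rw [hr, Subgroup.closure_empty] at hf
    have : Subsingleton P := by
      refine ⟨fun a b => ?_⟩
      have ha : a ∈ (⊥ : Subgroup P) := hf ▸ Subgroup.mem_top a
      have hb : b ∈ (⊥ : Subgroup P) := hf ▸ Subgroup.mem_top b
      rw [Subgroup.mem_bot] at ha hb
      rw [ha, hb]
    infer_instance
  · have hr : Set.range f = {f 0} := by
      ext x
      constructor
      · rintro ⟨i, rfl⟩
        have : i = 0 := Subsingleton.elim _ _
        simp [this]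
      · rintro rfl
        exact ⟨0, rfl⟩
    rw [hr, ← Subgroup.zpowers_eq_closure] at hf
    obtain ⟨k, hk, hgk⟩ := hper (f 0)
    have hfo : IsOfFinOrder (f 0) := isOfFinOrder_iff_pow_eq_one.mpr ⟨k, hk, hgk⟩
    have hfin : (Subgroup.zpowers (f 0) : Set P).Finite := hfo.finite_zpowers
    rw [hf] at hfin
    have : (Set.univ : Set P).Finite := by simpa using hfin
    exact Set.finite_univ_iff.mp this

private lemma part3 (G : Type*) [Group G] (n m : ℕ) (rel : Fin m → FreeGroup (Fin n))
    (e : Nonempty (G ≃* PresentedGroup (Set.range rel))) (hm : m ≤ 1)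
    (hper : ∀ g : G, ∃ k : ℕ, 0 < k ∧ g ^ k = 1) : Finite G := by
  have hn : n ≤ 1 := (part2 G n m rel e hper).trans hm
  obtain ⟨e⟩ := e
  have hper' : ∀ g : PresentedGroup (Set.range rel), ∃ k : ℕ, 0 < k ∧ g ^ k = 1 := by
    intro g
    obtain ⟨k, hk, hgk⟩ := hper (e.symm g)
    refine ⟨k, hk, ?_⟩
    have := congrArg e hgk
    simpa using this
  have : Finite (PresentedGroup (Set.range rel)) :=
    finite_of_generated_by_le_one hn (PresentedGroup.of : Fin n → PresentedGroup (Set.range rel))
      (PresentedGroup.closure_range_of _) hper'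
  exact Finite.of_equiv _ e.symm.toEquiv

/-- **Result.** Presentations `⟨x_1, …, x_n | r_1, …, r_m⟩`, i.e. the groups
`PresentedGroup (Set.range rel)` with `rel : Fin m → FreeGroup (Fin n)`.

1. If `m < n`, the presented group has an element of infinite order.
2. If a periodic group `G` is isomorphic to such a presented group, then `n ≤ m`.
3. If a periodic group `G` is isomorphic to such a presented group with `m ≤ 1`
   (at most one relator), then `G` is finite. -/
theorem result :
    (∀ (n m : ℕ) (rel : Fin m → FreeGroup (Fin n)), m < n →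
        ∃ g : PresentedGroup (Set.range rel), ∀ k : ℕ, 0 < k → g ^ k ≠ 1) ∧
    (∀ (G : Type) [Group G] (n m : ℕ) (rel : Fin m → FreeGroup (Fin n)),
        Nonempty (G ≃* PresentedGroup (Set.range rel)) →
        (∀ g : G, ∃ k : ℕ, 0 < k ∧ g ^ k = 1) → n ≤ m) ∧
    (∀ (G : Type) [Group G] (n m : ℕ) (rel : Fin m → FreeGroup (Fin n)),
        Nonempty (G ≃* PresentedGroup (Set.range rel)) → m ≤ 1 →
        (∀ g : G, ∃ k : ℕ, 0 < k ∧ g ^ k = 1) → Finite G) :=
  ⟨part1, fun G _ n m rel e hper => part2 G n m rel e hper,
    fun G _ n m rel e hm hper => part3 G n m rel e hm hper⟩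

end Vale.Agent.Results.P192.A_DeficiencyBound
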