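import Mathlib

/-!
# P192 — a twisted deficiency bound for presentations of periodic groups

Let `χ` assign a nonzero complex number to each of the `n` generators, and extend it
multiplicatively to words (`FreeGroup.lift χ`).  Consider a presentation whose relators are

* powers `w ^ d` of words `w` with `χ w ≠ 1` and `(χ w) ^ d = 1` (any number of them), and
* `k` further words `u` with `χ u = 1`.

If `k + 2 ≤ n` the presented group has an element of infinite order; so a periodic group with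
such a presentation has `n ≤ k + 1`.

Proof: map the generators to affine maps `z ↦ χ_i z + a_i` of `ℂ`.  Relators of the first kind
are killed for every choice of `a`; those of the second kind impose `k` linear conditions on `a`.
-/

namespace Vale.Agent.Results.P192.B_TwistedDeficiency

/-- The group of affine maps `z ↦ s z + a` of `ℂ`. -/
@[ext] structure Aff where
  s : ℂˣ
  a : ℂ

namespace Aff

instance : Mul Aff := ⟨fun x y => ⟨x.s * y.s, x.a + x.s * y.a⟩⟩
instance : One Aff := ⟨⟨1, 0⟩⟩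
instance : Inv Aff := ⟨fun x => ⟨x.s⁻¹, -(((x.s⁻¹ : ℂˣ) : ℂ) * x.a)⟩⟩

@[simp] lemma mul_s (x y : Aff) : (x * y).s = x.s * y.s := rfl
@[simp] lemma mul_a (x y : Aff) : (x * y).a = x.a + x.s * y.a := rfl
@[simp] lemma one_s : (1 : Aff).s = 1 := rfl
@[simp] lemma one_a : (1 : Aff).a = 0 := rfl
@[simp] lemma inv_s (x : Aff) : (x⁻¹).s = x.s⁻¹ := rfl
@[simp] lemma inv_a (x : Aff) : (x⁻¹).a = -(((x.s⁻¹ : ℂˣ) : ℂ) * x.a) := rfl

instance : Group Aff :=
  Group.ofLeftAxioms
    (fun x y z => by ext <;> simp [mul_assoc, mul_add, add_assoc])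
    (fun x => by ext <;> simp)
    (fun x => by ext <;> simp)

/-- The linear part, as a homomorphism. -/
def sHom : Aff →* ℂˣ where
  toFun := Aff.s
  map_one' := rfl
  map_mul' _ _ := rfl

lemma pow_s (x : Aff) (m : ℕ) : (x ^ m).s = x.s ^ m := map_pow sHom x m

lemma pow_a (x : Aff) (m : ℕ) :
    (x ^ m).a = (∑ l ∈ Finset.range m, (x.s : ℂ) ^ l) * x.a := by
  induction m with
  | zero => simp
  | succ m ih =>
    rw [pow_succ, mul_a, ih, pow_s, Finset.sum_range_succ]
    push_cast
    ring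

lemma pow_eq_one_of (x : Aff) (d : ℕ) (h1 : x.s ≠ 1) (h2 : x.s ^ d = 1) : x ^ d = 1 := by
  ext
  · rw [pow_s, h2]; rfl
  · rw [pow_a, one_a]
    have hs : (x.s : ℂ) - 1 ≠ 0 := by
      intro h
      apply h1
      ext
      simpa [sub_eq_zero] using h
    have hg : (∑ l ∈ Finset.range d, (x.s : ℂ) ^ l) * ((x.s : ℂ) - 1) = 0 := by
      rw [geom_sum_mul]
      have h3 : ((x.s ^ d : ℂˣ) : ℂ) = 1 := by rw [h2]; rfl
      rw [Units.val_pow_eq_pow_val] at h3
      rw [h3, sub_self]
    rcases mul_eq_zero.mp hg with h | h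
    · rw [h, zero_mul]
    · exact absurd h hs

lemma pow_a_of_s_eq_one (x : Aff) (h : x.s = 1) (m : ℕ) : (x ^ m).a = m * x.a := by
  rw [pow_a, h]
  simp

end Aff

variable {n : ℕ}

/-- The homomorphism sending the generator `x_i` to the affine map `z ↦ χ_i z + a_i`. -/
noncomputable def Φ (χ : Fin n → ℂˣ) (a : Fin n → ℂ) : FreeGroup (Fin n) →* Aff :=
  FreeGroup.lift (fun i => (⟨χ i, a i⟩ : Aff))

lemma Φ_s (χ : Fin n → ℂˣ) (a : Fin n → ℂ) (w : FreeGroup (Fin n)) :
    (Φ χ a w).s = FreeGroup.lift χ w := by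
  have h : Aff.sHom.comp (Φ χ a) = FreeGroup.lift χ := by
    ext i
    simp [Φ, Aff.sHom]
  exact DFunLike.congr_fun h w

/-- The coefficient of `a_i` in the translation part of the image of `w`. -/
noncomputable def coef (χ : Fin n → ℂˣ) (i : Fin n) (w : FreeGroup (Fin n)) : ℂ :=
  (Φ χ (Pi.single i 1) w).a

lemma Φ_a (χ : Fin n → ℂˣ) (a : Fin n → ℂ) (w : FreeGroup (Fin n)) :
    (Φ χ a w).a = ∑ i, a i * coef χ i w := by
  induction w using FreeGroup.induction_on with
  | C1 => simp [coef]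
  | of j => simp [coef, Φ, Pi.single_apply]
  | inv_of j ih =>
    simp [coef, Φ, Pi.single_apply]
    ring
  | mul x y hx hy =>
    simp only [coef, map_mul, Aff.mul_a, Φ_s] at *
    rw [hx, hy, Finset.mul_sum, ← Finset.sum_add_distrib]
    refine Finset.sum_congr rfl fun i _ => by ring

theorem core (n k : ℕ) (ι : Type) (χ : Fin n → ℂˣ)
    (w : ι → FreeGroup (Fin n)) (d : ι → ℕ) (u : Fin k → FreeGroup (Fin n))
    (hw1 : ∀ i, FreeGroup.lift χ (w i) ≠ 1)
    (hw2 : ∀ i, FreeGroup.lift χ (w i) ^ d i = 1)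
    (hu : ∀ j, FreeGroup.lift χ (u j) = 1)
    (hk : k + 2 ≤ n) :
    ∃ g : PresentedGroup (Set.range (fun i => w i ^ d i) ∪ Set.range u),
      ∀ m : ℕ, 0 < m → g ^ m ≠ 1 := by
  classical
  have hn : 0 < n := by omega
  obtain ⟨i0, hi0⟩ : ∃ i0 : Fin n, (∃ i, χ i ≠ 1) → χ i0 ≠ 1 := by
    by_cases h : ∃ i, χ i ≠ 1
    · obtain ⟨i, hi⟩ := h
      exact ⟨i, fun _ => hi⟩
    · exact ⟨⟨0, hn⟩, fun h' => absurd h' h⟩
  -- a square system: `k` rows for the relators `u j`, one normalising row, then zero rows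
  obtain ⟨M, hM⟩ : ∃ M : Matrix (Fin n) (Fin n) ℂ, ∀ r i, M r i =
      if h : (r : ℕ) < k then coef χ i (u ⟨r, h⟩)
      else if (r : ℕ) = k then (if i = i0 then 1 else 0) else 0 := ⟨_, fun _ _ => rfl⟩
  have hdet : M.det = 0 := by
    apply Matrix.det_eq_zero_of_row_eq_zero (⟨k + 1, by omega⟩ : Fin n)
    intro j
    rw [hM]
    simp
  obtain ⟨v, hv, hMv⟩ := Matrix.exists_mulVec_eq_zero_iff.mpr hdet
  have hE1 : ∀ j : Fin k, ∑ i, v i * coef χ i (u j) = 0 := by
    intro j
    have h1 := congrFun hMv ⟨j, by omega⟩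
    simp only [Matrix.mulVec, dotProduct, Pi.zero_apply] at h1
    rw [← h1]
    refine Finset.sum_congr rfl fun i _ => ?_
    rw [hM]
    simp [mul_comm]
  have hE2 : v i0 = 0 := by
    have h1 := congrFun hMv ⟨k, by omega⟩
    simp only [Matrix.mulVec, dotProduct, Pi.zero_apply] at h1
    rw [← h1]
    have : ∀ i, M ⟨k, by omega⟩ i * v i = if i = i0 then v i else 0 := by
      intro i
      rw [hM]
      simp
    simp [this]
  -- the homomorphism to the affine group descends to the presented group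
  have hrel : ∀ r ∈ Set.range (fun i => w i ^ d i) ∪ Set.range u,
      FreeGroup.lift (fun i => (⟨χ i, v i⟩ : Aff)) r = 1 := by
    intro r hr
    rcases hr with ⟨i, rfl⟩ | ⟨j, rfl⟩
    · change Φ χ v (w i ^ d i) = 1
      rw [map_pow]
      apply Aff.pow_eq_one_of
      · rw [Φ_s]; exact hw1 i
      · rw [Φ_s]; exact hw2 i
    · change Φ χ v (u j) = 1
      ext
      · rw [Φ_s, hu j]; rfl
      · rw [Φ_a, hE1 j]; rfl
  obtain ⟨i1, hi1⟩ : ∃ i, v i ≠ 0 := by
    by_contra hcon
    exact hv (funext fun i => not_not.mp fun hi => hcon ⟨i, hi⟩)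
  -- an element whose image is a nontrivial translation
  have key : ∃ g : PresentedGroup (Set.range (fun i => w i ^ d i) ∪ Set.range u),
      (PresentedGroup.toGroup hrel g).s = 1 ∧ (PresentedGroup.toGroup hrel g).a ≠ 0 := by
    by_cases h1 : χ i1 = 1
    · refine ⟨PresentedGroup.of i1, ?_, ?_⟩
      · rw [PresentedGroup.toGroup.of]; exact h1
      · rw [PresentedGroup.toGroup.of]; exact hi1
    · have h0 : χ i0 ≠ 1 := hi0 ⟨i1, h1⟩
      refine ⟨PresentedGroup.of i1 * PresentedGroup.of i0 * (PresentedGroup.of i1)⁻¹ *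
        (PresentedGroup.of i0)⁻¹, ?_, ?_⟩
      · simp only [map_mul, map_inv, PresentedGroup.toGroup.of, Aff.mul_s, Aff.inv_s]
        rw [mul_comm (χ i1) (χ i0)]
        simp
      · simp only [map_mul, map_inv, PresentedGroup.toGroup.of, Aff.mul_a, Aff.mul_s,
          Aff.inv_a, Aff.inv_s, hE2]
        have h2 : ((χ i0 : ℂˣ) : ℂ) ≠ 1 := fun h => h0 (Units.ext h)
        have h3 : (1 - ((χ i0 : ℂˣ) : ℂ)) * v i1 ≠ 0 :=
          mul_ne_zero (sub_ne_zero.mpr (Ne.symm h2)) hi1
        convert h3 using 1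
        push_cast
        field_simp
        ring
  obtain ⟨g, hg1, hg2⟩ := key
  refine ⟨g, fun m hm hgm => ?_⟩
  have h4 : (PresentedGroup.toGroup hrel g) ^ m = 1 := by
    rw [← map_pow, hgm, map_one]
  have h5 := congrArg Aff.a h4
  rw [Aff.pow_a_of_s_eq_one _ hg1, Aff.one_a] at h5
  rcases mul_eq_zero.mp h5 with h6 | h6
  · exact absurd (by exact_mod_cast h6) hm.ne'
  · exact hg2 h6

/-- **Result.**  `χ` assigns a nonzero complex number to each of the `n` generators and is
extended multiplicatively to words (`FreeGroup.lift χ`).  The relators are the powers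
`w i ^ d i` of words with `χ (w i) ≠ 1` and `χ (w i) ^ d i = 1` (any index type `ι`) and `k`
further words `u j` with `χ (u j) = 1`.

1. If `k + 2 ≤ n`, the presented group has an element of infinite order.
2. If a periodic group `G` is isomorphic to such a presented group, then `n ≤ k + 1`. -/
theorem result :
    (∀ (n k : ℕ) (ι : Type) (χ : Fin n → ℂˣ)
        (w : ι → FreeGroup (Fin n)) (d : ι → ℕ) (u : Fin k → FreeGroup (Fin n)),
        (∀ i, FreeGroup.lift χ (w i) ≠ 1) →
        (∀ i, FreeGroup.lift χ (w i) ^ d i = 1) →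
        (∀ j, FreeGroup.lift χ (u j) = 1) →
        k + 2 ≤ n →
        ∃ g : PresentedGroup (Set.range (fun i => w i ^ d i) ∪ Set.range u),
          ∀ m : ℕ, 0 < m → g ^ m ≠ 1) ∧
    (∀ (G : Type) [Group G] (n k : ℕ) (ι : Type) (χ : Fin n → ℂˣ)
        (w : ι → FreeGroup (Fin n)) (d : ι → ℕ) (u : Fin k → FreeGroup (Fin n)),
        (∀ i, FreeGroup.lift χ (w i) ≠ 1) →
        (∀ i, FreeGroup.lift χ (w i) ^ d i = 1) →
        (∀ j, FreeGroup.lift χ (u j) = 1) →
        Nonempty (G ≃* PresentedGroup (Set.range (fun i => w i ^ d i) ∪ Set.range u)) →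
        (∀ g : G, ∃ m : ℕ, 0 < m ∧ g ^ m = 1) →
        n ≤ k + 1) := by
  refine ⟨core, ?_⟩
  intro G _ n k ι χ w d u hw1 hw2 hu ⟨e⟩ hper
  by_contra hcon
  obtain ⟨g, hg⟩ := core n k ι χ w d u hw1 hw2 hu (by omega)
  obtain ⟨m, hm, hgm⟩ := hper (e.symm g)
  refine hg m hm ?_
  have := congrArg e hgm
  simpa using this

end Vale.Agent.Results.P192.B_TwistedDeficiency
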